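import Vale.Agent.P092.H184.Embed

/-!
# From the conclusion of the abstract theorem to a group isomorphism and a character
-/

namespace Vale.Agent.P092

open scoped InnerProductSpace ENNReal ComplexConjugate
open ContinuousLinearMap InnerProductSpace

noncomputable section

variable {Γ Λ : Type} [Group Γ] [Group Λ] {H : Type} [NormedAddCommGroup H]
  [InnerProductSpace ℂ H] [CompleteSpace H]
  (U : Γ →* unitary (H →L[ℂ] H)) (V : Λ →* unitary (H →L[ℂ] H))

/-- Inner products in an orbit which is an orthonormal basis. -/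
theorem inner_orbit {z : H} (hz : ‖z‖ = 1)
    (horth : ∀ s : Λ, s ≠ 1 → ⟪z, (V s : H →L[ℂ] H) z⟫_ℂ = 0) [DecidableEq Λ] (x y : Λ) :
    ⟪(V x : H →L[ℂ] H) z, (V y : H →L[ℂ] H) z⟫_ℂ = if x = y then 1 else 0 := by
  rw [rep_inner_left, ← rep_mul_apply]
  split_ifs with h
  · rw [h, inv_mul_cancel, rep_one_apply, inner_self_eq_norm_sq_to_K (𝕜 := ℂ), hz]
    simp
  · exact horth _ fun h1 => h (inv_mul_eq_one.1 h1)

/-- The element of the orbit determines the group element, up to scalars. -/
theorem orbit_unique {z : H} (hz : ‖z‖ = 1)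
    (horth : ∀ s : Λ, s ≠ 1 → ⟪z, (V s : H →L[ℂ] H) z⟫_ℂ = 0) {x y : Λ} {c c' : ℂ} (hc : c ≠ 0)
    (h : c • (V x : H →L[ℂ] H) z = c' • (V y : H →L[ℂ] H) z) : x = y ∧ c = c' := by
  classical
  have h1 := congrArg (fun v => ⟪(V x : H →L[ℂ] H) z, v⟫_ℂ) h
  simp only [inner_smul_right, inner_orbit V hz horth, if_true, mul_one] at h1
  by_cases hxy : x = y
  · rw [if_pos hxy, mul_one] at h1
    exact ⟨hxy, h1⟩
  · rw [if_neg hxy, mul_zero] at h1
    exact absurd h1 hc

/-- The end of the proof: a group isomorphism and a character. -/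
theorem exists_mulEquiv_of_concl
    (hUV : ∀ g s, Commute (U g : H →L[ℂ] H) (V s : H →L[ℂ] H)) (hC : Concl U V)
    (hcomm : ∀ B x : H →L[ℂ] H, (∀ g, Commute B (U g : H →L[ℂ] H)) →
      (∀ s, Commute x (V s : H →L[ℂ] H)) → Commute B x)
    (hicc : IsICC Γ)
    (hfix : ∀ z : H, z ≠ 0 → {g : Γ | ∃ c : ℂ, (U g : H →L[ℂ] H) z = c • z}.Finite) :
    ∃ (z : H) (δ : Γ ≃* Λ) (χ : Γ →* Circle), ‖z‖ = 1 ∧
      (∀ g, (U g : H →L[ℂ] H) z = (χ g : ℂ) • (V (δ g)⁻¹ : H →L[ℂ] H) z) ∧
      (∀ s : Λ, s ≠ 1 → ⟪z, (V s : H →L[ℂ] H) z⟫_ℂ = 0) ∧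
      (∀ v : H, (∀ s : Λ, ⟪(V s : H →L[ℂ] H) z, v⟫_ℂ = 0) → v = 0) := by
  classical
  obtain ⟨z, hz, horth, htot, hU⟩ := hC
  have hz0 : z ≠ 0 := fun h => by rw [h, norm_zero] at hz; exact zero_ne_one hz
  choose s c hsc using hU
  have hUVz : ∀ g x, (U g : H →L[ℂ] H) ((V x : H →L[ℂ] H) z) =
      c g • (V (x * s g) : H →L[ℂ] H) z := by
    intro g x
    rw [commute_apply (hUV g x), hsc, map_smul, rep_mul_apply]
  have hc1 : ∀ g, ‖c g‖ = 1 := by
    intro g
    have h1 := congrArg norm (hsc g)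
    rw [rep_norm, norm_smul, rep_norm, hz, mul_one] at h1
    exact h1.symm
  have hc0 : ∀ g, c g ≠ 0 := fun g h => by
    have := hc1 g
    rw [h, norm_zero] at this
    exact zero_ne_one this
  have hmul : ∀ g h, s (g * h) = s h * s g ∧ c (g * h) = c g * c h := by
    intro g h
    have h1 : c (g * h) • (V (s (g * h)) : H →L[ℂ] H) z =
        (c g * c h) • (V (s h * s g) : H →L[ℂ] H) z := by
      rw [← hsc, rep_mul_apply U, hsc h, map_smul, hUVz, smul_smul, mul_comm (c h)]
    exact orbit_unique V hz horth (hc0 _) h1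
  -- the homomorphism
  let δ₀ : Γ →* Λ := MonoidHom.mk' (fun g => (s g)⁻¹) fun g h => by
    rw [(hmul g h).1, mul_inv_rev]
  let χ : Γ →* Circle := MonoidHom.mk' (fun g => ⟨c g, by
    simpa [Submonoid.unitSphere] using hc1 g⟩) fun g h => by
      apply Circle.ext
      exact (hmul g h).2
  have hδs : ∀ g, (δ₀ g)⁻¹ = s g := fun g => inv_inv _
  have hker : ∀ g, δ₀ g = 1 → g = 1 := by
    intro g hg
    by_contra hne
    have h1 : {x : Γ | IsConj g x} ⊆ {g : Γ | ∃ c : ℂ, (U g : H →L[ℂ] H) z = c • z} := by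
      intro x hx
      obtain ⟨y, hy⟩ := isConj_iff.1 hx
      have hx1 : δ₀ x = 1 := by
        rw [← hy, map_mul, map_mul, hg, mul_one, ← map_mul, mul_inv_cancel, map_one]
      have hx2 : s x = 1 := by rw [← hδs, hx1, inv_one]
      refine ⟨c x, ?_⟩
      rw [hsc, hx2, rep_one_apply]
    exact (hicc g hne) ((hfix z hz0).subset h1)
  have hinj : Function.Injective δ₀ := (injective_iff_map_eq_one δ₀).2 hker
  have hsurj : Function.Surjective δ₀ := by
    intro t
    -- the closed span of the orbit of the range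
    set S : Set H := {y | ∃ g, (V (δ₀ g) : H →L[ℂ] H) z = y} with hS
    set T : Submodule ℂ H := (Submodule.span ℂ S).topologicalClosure with hT
    have : CompleteSpace T := (Submodule.isClosed_topologicalClosure _).completeSpace_coe
    have hinv : ∀ g, ∀ y ∈ T, (U g : H →L[ℂ] H) y ∈ T := by
      intro g y hy
      have h1 : Submodule.span ℂ S ≤
          (Submodule.span ℂ S).comap (U g : H →L[ℂ] H).toLinearMap := by
        rw [Submodule.span_le]
        rintro _ ⟨h, rfl⟩
        change (U g : H →L[ℂ] H) ((V (δ₀ h) : H →L[ℂ] H) z) ∈ Submodule.span ℂ S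
        rw [hUVz]
        refine Submodule.smul_mem _ _ (Submodule.subset_span ⟨h * g⁻¹, ?_⟩)
        rw [map_mul, map_inv, hδs]
      have h2 : T ≤ T.comap (U g : H →L[ℂ] H).toLinearMap := by
        refine Submodule.topologicalClosure_minimal _ (h1.trans ?_) ?_
        · exact Submodule.comap_mono (Submodule.le_topologicalClosure _)
        · exact (Submodule.isClosed_topologicalClosure (Submodule.span ℂ S)).preimage
            (U g : H →L[ℂ] H).continuous
      exact h2 hy
    have hQU : ∀ g, Commute T.starProjection (U g : H →L[ℂ] H) := by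
      intro g
      refine (starProjection_commute T (hinv g) ?_).symm
      rw [adjoint_rep]
      exact hinv g⁻¹
    obtain ⟨r, hr⟩ := exists_clm_of_gram (fun x : Λ => (V x : H →L[ℂ] H) z)
      (fun x : Λ => (V (x * t) : H →L[ℂ] H) z) (fun x y => by
        rw [inner_orbit V hz horth, inner_orbit V hz horth]
        simp only [mul_left_inj]) htot
    have hrV : ∀ x, Commute r (V x : H →L[ℂ] H) := by
      intro x
      refine clm_ext_total htot fun y => ?_
      change r ((V x : H →L[ℂ] H) ((V y : H →L[ℂ] H) z)) =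
        (V x : H →L[ℂ] H) (r ((V y : H →L[ℂ] H) z))
      rw [← rep_mul_apply, hr, hr, mul_assoc, rep_mul_apply]
    have hQr := commute_apply (hcomm _ r hQU hrV) z
    have hzT : z ∈ T := by
      refine Submodule.le_topologicalClosure _ (Submodule.subset_span ⟨1, ?_⟩)
      rw [map_one, rep_one_apply]
    have hrz : r z = (V t : H →L[ℂ] H) z := by
      have := hr 1
      rwa [rep_one_apply, one_mul] at this
    rw [hrz, Submodule.starProjection_eq_self_iff.2 hzT, hrz] at hQr
    have hVT : (V t : H →L[ℂ] H) z ∈ T := Submodule.starProjection_eq_self_iff.1 hQr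
    by_contra hne
    push Not at hne
    -- `V t z` is orthogonal to `T`
    have h3 : T ≤ (Submodule.span ℂ {(V t : H →L[ℂ] H) z})ᗮ := by
      refine Submodule.topologicalClosure_minimal _ ?_ (Submodule.isClosed_orthogonal _)
      rw [Submodule.span_le]
      rintro _ ⟨g, rfl⟩
      change _ ∈ (Submodule.span ℂ {(V t : H →L[ℂ] H) z})ᗮ
      rw [Submodule.mem_orthogonal_singleton_iff_inner_right, inner_orbit V hz horth,
        if_neg (fun h => hne g h.symm)]
    have h4 := h3 hVT
    rw [Submodule.mem_orthogonal_singleton_iff_inner_right, inner_orbit V hz horth, if_pos rfl]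
      at h4
    exact one_ne_zero h4
  refine ⟨z, MulEquiv.ofBijective δ₀ ⟨hinj, hsurj⟩, χ, hz, fun g => ?_, horth, htot⟩
  rw [hsc]
  change c g • (V (s g) : H →L[ℂ] H) z = c g • (V (δ₀ g)⁻¹ : H →L[ℂ] H) z
  rw [hδs]

end

end Vale.Agent.P092
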