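import Vale.Agent.P092.H414.Equiv
import Mathlib.Analysis.Normed.Operator.Extend
import Mathlib.Analysis.SpecialFunctions.ContinuousFunctionalCalculus.Rpow.Basic
import Mathlib.Analysis.CStarAlgebra.ContinuousFunctionalCalculus.Basic
import Mathlib.Analysis.InnerProductSpace.StarOrder

/-!
# The frame lemma

A unitary representation with a countable total set of Bessel vectors has a frame.
-/

namespace Vale.Agent.P092

open scoped InnerProductSpace ENNReal ComplexConjugate NNReal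
open ContinuousLinearMap InnerProductSpace

noncomputable section

/-- If `‖A v‖ = ‖T v‖` for all `v` and `T` has dense range then `A = Y T` for an isometry `Y`. -/
theorem exists_isometry_of_norm {E F : Type} [NormedAddCommGroup E] [InnerProductSpace ℂ E]
    [NormedAddCommGroup F] [InnerProductSpace ℂ F] [CompleteSpace F]
    (T : E →L[ℂ] E) (A : E →L[ℂ] F) (h : ∀ v, ‖A v‖ = ‖T v‖) (hd : DenseRange T) :
    ∃ Y : E →L[ℂ] F, (∀ v, Y (T v) = A v) ∧ ∀ v, ‖Y v‖ = ‖v‖ := by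
  have hb : ∃ C : ℝ, ∀ x, ‖(A : E →ₗ[ℂ] F) x‖ ≤ C * ‖(T : E →ₗ[ℂ] E) x‖ :=
    ⟨1, fun x => by rw [one_mul]; exact (h x).le⟩
  have hY : ∀ v, (A : E →ₗ[ℂ] F).extendOfNorm (T : E →ₗ[ℂ] E) (T v) = A v := fun v =>
    LinearMap.extendOfNorm_eq (f := (A : E →ₗ[ℂ] F)) (e := (T : E →ₗ[ℂ] E)) hd hb v
  refine ⟨(A : E →ₗ[ℂ] F).extendOfNorm (T : E →ₗ[ℂ] E), hY, fun v => ?_⟩
  refine hd.induction_on (p := fun v =>
    ‖(A : E →ₗ[ℂ] F).extendOfNorm (T : E →ₗ[ℂ] E) v‖ = ‖v‖) v ?_ fun w => ?_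
  · exact isClosed_eq (by fun_prop) (by fun_prop)
  · rw [hY, h]

theorem frameOp_nonneg {κ K : Type} [NormedAddCommGroup K] [InnerProductSpace ℂ K]
    [CompleteSpace K] (F : κ → K) (hF : IsBessel F) : 0 ≤ frameOp F hF := by
  rw [nonneg_iff_isPositive]
  exact isPositive_adjoint_comp_self _

variable {κ Λ : Type} [Group Λ] {H : Type} [NormedAddCommGroup H] [InnerProductSpace ℂ H]
  [CompleteSpace H]

theorem commute_frameOp (V : Λ →* unitary (H →L[ℂ] H)) (F : κ × Λ → H) (hF : IsBessel F)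
    (hVF : ∀ k s t, (V t : H →L[ℂ] H) (F (k, s)) = F (k, t * s)) (t : Λ) :
    Commute (frameOp F hF) (V t : H →L[ℂ] H) := by
  refine ContinuousLinearMap.ext fun Z => ext_inner_left ℂ fun W => ?_
  change ⟪W, frameOp F hF ((V t : H →L[ℂ] H) Z)⟫_ℂ = ⟪W, (V t : H →L[ℂ] H) (frameOp F hF Z)⟫_ℂ
  rw [rep_inner_right, inner_frameOp, inner_frameOp,
    ← (Equiv.prodCongr (Equiv.refl κ) (Equiv.mulLeft t)).tsum_eq
      (fun p => conj ⟪F p, W⟫_ℂ * ⟪F p, (V t : H →L[ℂ] H) Z⟫_ℂ)]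
  refine tsum_congr fun p => ?_
  obtain ⟨k, s⟩ := p
  simp only [Equiv.prodCongr_apply, Equiv.coe_refl, Equiv.coe_mulLeft, Prod.map_apply, id_eq]
  rw [← hVF, unitary_inner_map, rep_inner_left]

/-- **Frame lemma.** -/
theorem exists_isFrame [Countable κ] (V : Λ →* unitary (H →L[ℂ] H)) (f : κ → H)
    (hf : ∀ k, IsBessel fun s : Λ => (V s : H →L[ℂ] H) (f k))
    (htot : ∀ v : H, (∀ k s, ⟪(V s : H →L[ℂ] H) (f k), v⟫_ℂ = 0) → v = 0) :
    ∃ e : κ → H, IsFrame V e := by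
  classical
  obtain ⟨c, hc0, hc1⟩ := ENNReal.exists_pos_sum_of_countable (ε := 1) one_ne_zero κ
  have hc2 : ∑' k, (c k : ℝ≥0∞) ^ 2 ≤ 1 := by
    refine le_trans (ENNReal.tsum_le_tsum fun k => ?_) hc1.le
    have h1 : (c k : ℝ≥0∞) ≤ 1 := (ENNReal.le_tsum k).trans hc1.le
    calc (c k : ℝ≥0∞) ^ 2 = c k * c k := sq _
      _ ≤ c k * 1 := by gcongr
      _ = c k := mul_one _
  set F : κ × Λ → H := fun p => ((c p.1 : ℝ) : ℂ) • (V p.2 : H →L[ℂ] H) (f p.1) with hFdef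
  have hinner : ∀ (k : κ) (s : Λ) (v : H), ‖⟪F (k, s), v⟫_ℂ‖ₑ ^ 2 =
      (c k : ℝ≥0∞) ^ 2 * ‖⟪(V s : H →L[ℂ] H) (f k), v⟫_ℂ‖ₑ ^ 2 := by
    intro k s v
    rw [hFdef]
    simp only [inner_smul_left, Complex.conj_ofReal]
    rw [enorm_mul, mul_pow]
    congr 2
    rw [← ofReal_norm, Complex.norm_real, Real.norm_eq_abs, NNReal.abs_eq]
    exact ENNReal.ofReal_coe_nnreal
  have hF : IsBessel F := by
    intro v
    rw [ENNReal.tsum_prod']
    calc ∑' k, ∑' s, ‖⟪F (k, s), v⟫_ℂ‖ₑ ^ 2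
        = ∑' k, (c k : ℝ≥0∞) ^ 2 * ∑' s, ‖⟪(V s : H →L[ℂ] H) (f k), v⟫_ℂ‖ₑ ^ 2 := by
          refine tsum_congr fun k => ?_
          rw [← ENNReal.tsum_mul_left]
          exact tsum_congr fun s => hinner k s v
      _ ≤ ∑' k, (c k : ℝ≥0∞) ^ 2 * ‖v‖ₑ ^ 2 :=
          ENNReal.tsum_le_tsum fun k => mul_le_mul_right (hf k v) _
      _ = (∑' k, (c k : ℝ≥0∞) ^ 2) * ‖v‖ₑ ^ 2 := ENNReal.tsum_mul_right
      _ ≤ 1 * ‖v‖ₑ ^ 2 := by gcongr
      _ = ‖v‖ₑ ^ 2 := one_mul _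
  have hVF : ∀ k s t, (V t : H →L[ℂ] H) (F (k, s)) = F (k, t * s) := by
    intro k s t
    rw [hFdef]
    simp only [map_smul]
    rw [rep_mul_apply]
  set T : H →L[ℂ] H := CFC.sqrt (frameOp F hF) with hT
  have hS0 : 0 ≤ frameOp F hF := frameOp_nonneg F hF
  have hTT : T * T = frameOp F hF := CFC.sqrt_mul_sqrt_self _ hS0
  have hT0 : 0 ≤ T := CFC.sqrt_nonneg _
  have hTsa : adjoint T = T := by
    have := (nonneg_iff_isPositive T).1 hT0
    exact this.isSelfAdjoint.adjoint_eq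
  have hTV : ∀ t, Commute T (V t : H →L[ℂ] H) := fun t =>
    (commute_frameOp V F hF hVF t).cfcₙ_nnreal NNReal.sqrt
  have hnorm : ∀ v, ‖analysis F hF v‖ = ‖T v‖ := by
    intro v
    have h1 : ‖analysis F hF v‖ ^ 2 = ‖T v‖ ^ 2 := by
      rw [norm_sq_eq_re_inner (𝕜 := ℂ), norm_sq_eq_re_inner (𝕜 := ℂ), ← adjoint_inner_right,
        ← adjoint_inner_right, hTsa]
      have h2 : T (T v) = frameOp F hF v := by rw [← hTT]; rfl
      rw [h2]
      rfl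
    exact (sq_eq_sq₀ (norm_nonneg _) (norm_nonneg _)).1 h1
  have hinj : ∀ v, T v = 0 → v = 0 := by
    intro v hv
    refine htot v fun k s => ?_
    have h1 : analysis F hF v = 0 := by
      rw [← norm_eq_zero, hnorm, hv, norm_zero]
    have h2 : ⟪F (k, s), v⟫_ℂ = 0 := by
      rw [← analysis_apply F hF v (k, s), h1]
      rfl
    have h3 : ⟪F (k, s), v⟫_ℂ = ((c k : ℝ) : ℂ) * ⟪(V s : H →L[ℂ] H) (f k), v⟫_ℂ := by
      rw [hFdef]
      simp only [inner_smul_left, Complex.conj_ofReal]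
    rw [h3] at h2
    rcases mul_eq_zero.1 h2 with h4 | h4
    · exfalso
      have h5 : (c k : ℝ) = 0 := by exact_mod_cast h4
      exact (hc0 k).ne' (by exact_mod_cast h5)
    · exact h4
  have hd : DenseRange T := by
    have h1 : Dense ((LinearMap.range (T : H →ₗ[ℂ] H) : Submodule ℂ H) : Set H) := by
      rw [Submodule.dense_iff_topologicalClosure_eq_top,
        Submodule.topologicalClosure_eq_top_iff, Submodule.eq_bot_iff]
      intro x hx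
      refine hinj x (ext_inner_left ℂ fun w => ?_)
      rw [inner_zero_right, ← hTsa, adjoint_inner_right]
      exact (Submodule.mem_orthogonal _ _).1 hx _ ⟨w, rfl⟩
    exact h1
  obtain ⟨Y, hY, hYn⟩ := exists_isometry_of_norm T (analysis F hF) hnorm hd
  -- the vectors `Y† δ_p`
  have hYF : ∀ p, T (adjoint Y (lp.single 2 p (1 : ℂ))) = F p := by
    intro p
    refine ext_inner_left ℂ fun w => ?_
    rw [← hTsa, adjoint_inner_right, adjoint_inner_right, hY, lp.inner_single_right,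
      analysis_apply, RCLike.inner_apply, one_mul, inner_conj_symm]
  have hVY : ∀ k s, (V s : H →L[ℂ] H) (adjoint Y (lp.single 2 (k, (1 : Λ)) (1 : ℂ))) =
      adjoint Y (lp.single 2 (k, s) (1 : ℂ)) := by
    intro k s
    rw [← sub_eq_zero]
    refine hinj _ ?_
    rw [map_sub, hYF, sub_eq_zero]
    have h1 : T ((V s : H →L[ℂ] H) (adjoint Y (lp.single 2 (k, (1 : Λ)) (1 : ℂ)))) =
        (V s : H →L[ℂ] H) (T (adjoint Y (lp.single 2 (k, (1 : Λ)) (1 : ℂ)))) :=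
      DFunLike.congr_fun (hTV s).eq _
    rw [h1, hYF, hVF, mul_one]
  refine ⟨fun k => adjoint Y (lp.single 2 (k, (1 : Λ)) (1 : ℂ)), fun v => ?_⟩
  have h1 : ∀ p : κ × Λ, ‖⟪(V p.2 : H →L[ℂ] H)
      (adjoint Y (lp.single 2 (p.1, (1 : Λ)) (1 : ℂ))), v⟫_ℂ‖ₑ ^ 2 = ‖(Y v) p‖ₑ ^ 2 := by
    intro p
    rw [hVY, adjoint_inner_left, lp.inner_single_left, RCLike.inner_apply, map_one, mul_one]
  calc ∑' p : κ × Λ, ‖⟪(V p.2 : H →L[ℂ] H)
        (adjoint Y (lp.single 2 (p.1, (1 : Λ)) (1 : ℂ))), v⟫_ℂ‖ₑ ^ 2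
      = ∑' p, ‖(Y v) p‖ₑ ^ 2 := tsum_congr h1
    _ = ‖Y v‖ₑ ^ 2 := lp_enorm_sq _
    _ = ‖v‖ₑ ^ 2 := by rw [← ofReal_norm, hYn, ofReal_norm]

end

end Vale.Agent.P092
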